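import Vale.Agent.helper5.GSHDfa

/-!
Languages recognised by a finite aperiodic monoid are star-free (Schutzenberger), by induction on
the size of the monoid through local monoids.
-/

namespace Vale.Agent.helper3.Gsh

open Vale.Agent.helper5.GSH

/-- `M` is aperiodic. -/
def Aper (M : Type) [Monoid M] : Prop := ∀ x : M, ∃ n : ℕ, x ^ n = x ^ (n + 1)

section Local

variable {M : Type} [Monoid M]

/-- The local monoid at `c`: the elements of `c M ∩ M c`. -/
def LocalM (c : M) : Type := {u : M // (∃ x, u = c * x) ∧ (∃ y, u = y * c)}

variable {c : M}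

/-- A left cofactor of an element of the local monoid. -/
noncomputable def LocalM.lft (u : LocalM c) : M := Classical.choose u.2.2

lemma LocalM.lft_spec (u : LocalM c) : u.1 = u.lft * c := Classical.choose_spec u.2.2

noncomputable instance : Mul (LocalM c) where
  mul u v := ⟨u.lft * v.1, by
    obtain ⟨x, hx⟩ := v.2.1
    obtain ⟨y, hy⟩ := v.2.2
    obtain ⟨x', hx'⟩ := u.2.1
    refine ⟨⟨x' * x, ?_⟩, ⟨u.lft * y, ?_⟩⟩
    · rw [hx, ← mul_assoc, ← u.lft_spec, hx', mul_assoc]
    · rw [hy, mul_assoc]⟩

instance : One (LocalM c) where
  one := ⟨c, ⟨1, by simp⟩, ⟨1, by simp⟩⟩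

lemma LocalM.one_val : (1 : LocalM c).1 = c := rfl

lemma LocalM.mul_val_of (u v : LocalM c) {y : M} (hy : u.1 = y * c) : (u * v).1 = y * v.1 := by
  obtain ⟨x, hx⟩ := v.2.1
  change u.lft * v.1 = y * v.1
  rw [hx, ← mul_assoc, ← mul_assoc, ← u.lft_spec, ← hy]

noncomputable instance : Monoid (LocalM c) where
  mul_assoc u v w := by
    apply Subtype.ext
    have h1 : (u * v).1 = (u.lft * v.lft) * c := by
      rw [LocalM.mul_val_of u v u.lft_spec, mul_assoc, ← v.lft_spec]
    rw [LocalM.mul_val_of (u * v) w h1, LocalM.mul_val_of u (v * w) u.lft_spec,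
      LocalM.mul_val_of v w v.lft_spec, mul_assoc]
  one_mul v := by
    apply Subtype.ext
    have h1 : (1 : LocalM c).1 = 1 * c := by simp [LocalM.one_val]
    rw [LocalM.mul_val_of 1 v h1, one_mul]
  mul_one u := by
    apply Subtype.ext
    rw [LocalM.mul_val_of u 1 u.lft_spec, LocalM.one_val, ← u.lft_spec]

lemma LocalM.pow_val (u : LocalM c) (n : ℕ) : (u ^ (n + 1)).1 = u.lft ^ n * u.1 := by
  induction n with
  | zero => simp
  | succ n ih =>
    have h1 : (u ^ (n + 1)).1 = u.lft ^ (n + 1) * c := by
      rw [ih, pow_succ u.lft n, mul_assoc, ← u.lft_spec]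
    rw [pow_succ u (n + 1), LocalM.mul_val_of _ _ h1]

lemma LocalM.aper (hM : Aper M) : Aper (LocalM c) := by
  intro u
  obtain ⟨n, hn⟩ := hM u.lft
  refine ⟨n + 1, ?_⟩
  apply Subtype.ext
  rw [LocalM.pow_val, LocalM.pow_val, hn]

instance [Finite M] : Finite (LocalM c) := by
  unfold LocalM
  infer_instance

lemma LocalM.card_lt [Finite M] (hM : Aper M) (hc : c ≠ 1) :
    Nat.card (LocalM c) < Nat.card M := by
  have hinj : Function.Injective (fun u : LocalM c => u.1) := fun a b h => Subtype.ext h
  have hns : ¬ Function.Surjective (fun u : LocalM c => u.1) := by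
    intro hs
    obtain ⟨u, hu⟩ := hs 1
    obtain ⟨x, hx⟩ := u.2.1
    obtain ⟨y, hy⟩ := u.2.2
    have hu' : u.1 = 1 := hu
    have h1 : c * x = 1 := by rw [← hx, hu']
    have h2 : y * c = 1 := by rw [← hy, hu']
    have h3 : IsUnit c := by
      have hyx : y = x := by
        calc y = y * (c * x) := by rw [h1, mul_one]
          _ = x := by rw [← mul_assoc, h2, one_mul]
      subst hyx
      exact ⟨⟨c, y, h1, h2⟩, rfl⟩
    obtain ⟨n, hn⟩ := hM c
    have h4 : c ^ n * 1 = c ^ n * c := by rw [mul_one, ← pow_succ]; exact hn
    exact hc ((h3.pow n).mul_left_cancel h4).symm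
  haveI := Fintype.ofFinite M
  haveI := Fintype.ofFinite (LocalM c)
  rw [Nat.card_eq_fintype_card, Nat.card_eq_fintype_card]
  exact Fintype.card_lt_of_injective_not_surjective _ hinj hns

end Local

/-- The value of a word. -/
def wval {α M : Type} [Monoid M] (φ : α → M) (w : List α) : M := (w.map φ).prod

section decode

variable {α M : Type} [Monoid M] [DecidableEq α] (φ : α → M) (c : α)

@[simp] lemma wval_nil : wval φ [] = 1 := rfl
@[simp] lemma wval_cons (x : α) (w : List α) : wval φ (x :: w) = φ x * wval φ w := by simp [wval]
lemma wval_append (u v : List α) : wval φ (u ++ v) = wval φ u * wval φ v := by simp [wval]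

/-- Read a word; the values of the segments finished by `c` are output. -/
def dec : M → List α → List M
  | _, [] => []
  | acc, x :: w => if x = c then acc :: dec 1 w else dec (acc * φ x) w

variable {φ c}

lemma dec_segment (acc : M) {u : List α} (hu : c ∉ u) (w : List α) :
    dec φ c acc (u ++ c :: w) = (acc * wval φ u) :: dec φ c 1 w := by
  induction u generalizing acc with
  | nil => simp [dec]
  | cons x u ih =>
    have h1 : x ≠ c := fun h => hu (by simp [h])
    have h2 : c ∉ u := fun h => hu (by simp [h])
    simp only [List.cons_append, dec, h1, if_false]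
    rw [ih _ h2, wval_cons, mul_assoc]

/-- The words over `B` that are empty or end with `c`. -/
def KSet (B : Finset α) (c : α) : Set (List α) :=
  {w | (∀ x ∈ w, x ∈ B) ∧ (w = [] ∨ ∃ u, w = u ++ [c])}

variable {B : Finset α}

lemma KSet.nil : ([] : List α) ∈ KSet B c := ⟨by simp, Or.inl rfl⟩

lemma KSet.decomp {w : List α} (hw : w ∈ KSet B c) (hne : w ≠ []) :
    ∃ u w', w = u ++ c :: w' ∧ c ∉ u ∧ (∀ x ∈ u, x ∈ B) ∧ w' ∈ KSet B c := by
  induction w with
  | nil => exact absurd rfl hne
  | cons x w ih =>
    obtain ⟨h1, h2⟩ := hw
    have h2' : ∃ u, x :: w = u ++ [c] := by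
      rcases h2 with h | h
      · exact absurd h hne
      · exact h
    by_cases hx : x = c
    · subst hx
      refine ⟨[], w, rfl, by simp, by simp, fun y hy => h1 y (by simp [hy]), ?_⟩
      rcases w with _ | ⟨y, w⟩
      · exact Or.inl rfl
      · obtain ⟨u, hu⟩ := h2'
        rcases u with _ | ⟨z, u⟩
        · simp at hu
        · simp only [List.cons_append, List.cons.injEq] at hu
          exact Or.inr ⟨u, hu.2⟩
    · obtain ⟨u, hu⟩ := h2'
      have hw' : w ≠ [] := by
        rintro rfl
        rcases u with _ | ⟨z, u⟩
        · simp at hu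
          exact hx hu
        · simp at hu
      have hmem : w ∈ KSet B c := by
        refine ⟨fun y hy => h1 y (by simp [hy]), Or.inr ?_⟩
        rcases u with _ | ⟨z, u⟩
        · simp at hu
          exact absurd hu.2 hw'
        · simp only [List.cons_append, List.cons.injEq] at hu
          exact ⟨u, hu.2⟩
      obtain ⟨u', w', h3, h4, h5, h6⟩ := ih hmem hw'
      refine ⟨x :: u', w', by simp [h3], ?_, ?_, h6⟩
      · simp only [List.mem_cons, not_or]
        exact ⟨fun h => hx h.symm, h4⟩
      · intro y hy
        rcases List.mem_cons.mp hy with rfl | hy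
        · exact h1 y (by simp)
        · exact h5 y hy

lemma KSet.cons_seg {u w' : List α} (hu : ∀ x ∈ u, x ∈ B) (hc : c ∈ B) (hw' : w' ∈ KSet B c) :
    u ++ c :: w' ∈ KSet B c := by
  refine ⟨?_, Or.inr ?_⟩
  · intro x hx
    simp only [List.mem_append, List.mem_cons] at hx
    rcases hx with hx | rfl | hx
    · exact hu x hx
    · exact hc
    · exact hw'.1 x hx
  · rcases hw'.2 with rfl | ⟨v, rfl⟩
    · exact ⟨u, rfl⟩
    · exact ⟨u ++ c :: v, by simp⟩

lemma dec_KSet_eq_nil {w : List α} (hw : w ∈ KSet B c) (h : dec φ c 1 w = []) : w = [] := by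
  by_contra hne
  obtain ⟨u, w', rfl, h1, _, _⟩ := KSet.decomp hw hne
  rw [dec_segment _ h1] at h
  simp at h

lemma dec_append {w1 w2 : List α} (h1 : w1 ∈ KSet B c) :
    dec φ c 1 (w1 ++ w2) = dec φ c 1 w1 ++ dec φ c 1 w2 := by
  induction hn : w1.length using Nat.strong_induction_on generalizing w1 with
  | _ n ih =>
    by_cases hne : w1 = []
    · subst hne
      simp [dec]
    · obtain ⟨u, w', rfl, h3, _, h5⟩ := KSet.decomp h1 hne
      have e : (u ++ c :: w') ++ w2 = u ++ c :: (w' ++ w2) := by simp
      rw [e, dec_segment _ h3, dec_segment _ h3, ih w'.length (by simp at hn; omega) h5 rfl]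
      simp

lemma KSet.append {w1 w2 : List α} (hc : c ∈ B) (h1 : w1 ∈ KSet B c) (h2 : w2 ∈ KSet B c) :
    w1 ++ w2 ∈ KSet B c := by
  refine ⟨?_, ?_⟩
  · intro x hx
    rcases List.mem_append.mp hx with hx | hx
    · exact h1.1 x hx
    · exact h2.1 x hx
  · rcases h2.2 with rfl | ⟨v, rfl⟩
    · simpa using h1.2
    · exact Or.inr ⟨w1 ++ v, by simp⟩

lemma dec_split (hc : c ∈ B) {r s : List M} {w : List α} (hw : w ∈ KSet B c)
    (h : dec φ c 1 w = r ++ s) :
    ∃ w1 w2, w = w1 ++ w2 ∧ w1 ∈ KSet B c ∧ w2 ∈ KSet B c ∧ dec φ c 1 w1 = r ∧ dec φ c 1 w2 = s := by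
  induction r generalizing w with
  | nil => exact ⟨[], w, rfl, KSet.nil, hw, by simp [dec], by simpa using h⟩
  | cons t r ih =>
    have hne : w ≠ [] := by
      rintro rfl
      simp [dec] at h
    obtain ⟨u, w', rfl, h3, h4, h5⟩ := KSet.decomp hw hne
    rw [dec_segment _ h3] at h
    simp only [List.cons_append, List.cons.injEq] at h
    obtain ⟨w1, w2, rfl, h6, h7, h8, h9⟩ := ih h5 h.2
    refine ⟨u ++ c :: w1, w2, by simp, KSet.cons_seg h4 hc h6, h7, ?_, h9⟩
    rw [dec_segment _ h3, h8]
    simp [h.1.symm]

/-- The language over `α` corresponding to a language over the monoid. -/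
def sigma (φ : α → M) (B : Finset α) (c : α) (Z : Set (List M)) : Set (List α) :=
  {w | w ∈ KSet B c ∧ dec φ c 1 w ∈ Z}

/-- The words over `B` without `c` of value `t`. -/
def segLang (φ : α → M) (B : Finset α) (c : α) (t : M) : Set (List α) :=
  {u | (∀ x ∈ u, x ∈ B) ∧ c ∉ u ∧ wval φ u = t}

lemma sigma_letter (hc : c ∈ B) (t : M) :
    sigma φ B c {[t]} = conc (segLang φ B c t) {[c]} := by
  ext w
  simp only [sigma, Set.mem_setOf_eq, Set.mem_singleton_iff, mem_conc]
  constructor
  · rintro ⟨hw, h⟩
    have hne : w ≠ [] := by
      rintro rfl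
      simp [dec] at h
    obtain ⟨u, w', rfl, h3, h4, h5⟩ := KSet.decomp hw hne
    rw [dec_segment _ h3] at h
    simp only [one_mul, List.cons.injEq] at h
    have hw' : w' = [] := dec_KSet_eq_nil h5 h.2
    subst hw'
    exact ⟨u, ⟨h4, h3, h.1⟩, [c], rfl, rfl⟩
  · rintro ⟨u, ⟨h1, h2, h3⟩, _, rfl, rfl⟩
    refine ⟨KSet.cons_seg h1 hc KSet.nil, ?_⟩
    rw [dec_segment _ h2, h3]
    simp [dec]

lemma gshLe_KSet [Fintype α] (hc : c ∈ B) : GshLe 0 (KSet B c) := by
  classical
  have h1 : GshLe 0 (onlyLetters (fun x => x ∈ B) : Set (List α)) := gshLe_onlyLetters _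
  have h2 : GshLe 0 (conc (Set.univ : Set (List α)) {[c]}) :=
    gshLe_univ.conc (gshLe_letter c)
  have h3 := h1.inter (h2.union gshLe_nil)
  convert h3 using 1
  ext w
  simp only [KSet, Set.mem_setOf_eq, Set.mem_inter_iff, onlyLetters, Set.mem_union, mem_conc,
    Set.mem_univ, true_and, Set.mem_singleton_iff]
  constructor
  · rintro ⟨h4, h5⟩
    refine ⟨h4, ?_⟩
    rcases h5 with rfl | ⟨u, rfl⟩
    · exact Or.inr rfl
    · exact Or.inl ⟨u, [c], rfl, rfl⟩
  · rintro ⟨h4, h5⟩
    refine ⟨h4, ?_⟩
    rcases h5 with ⟨u, _, rfl, rfl⟩ | rfl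
    · exact Or.inr ⟨u, rfl⟩
    · exact Or.inl rfl

lemma gshLe_sigma [Fintype α] (hc : c ∈ B) (hseg : ∀ t, GshLe 0 (segLang φ B c t))
    (e : GExp M) (he : e.height = 0) : GshLe 0 (sigma φ B c e.denote) := by
  classical
  induction e with
  | zero =>
    convert gshLe_empty (h := 0) (α := α) using 1
    ext w
    simp [sigma, GExp.denote]
  | one =>
    convert gshLe_nil (h := 0) (α := α) using 1
    ext w
    simp only [sigma, GExp.denote, Set.mem_setOf_eq, Set.mem_singleton_iff]
    constructor
    · rintro ⟨h1, h2⟩
      exact dec_KSet_eq_nil h1 h2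
    · rintro rfl
      exact ⟨KSet.nil, by simp [dec]⟩
  | lit t =>
    simp only [GExp.denote]
    rw [sigma_letter hc]
    exact (hseg t).conc (gshLe_letter c)
  | add p q hp hq =>
    have hpq : p.height = 0 ∧ q.height = 0 := by
      simp only [GExp.height] at he
      omega
    have := (hp hpq.1).union (hq hpq.2)
    convert this using 1
    ext w
    simp only [sigma, GExp.denote, Set.mem_setOf_eq, Set.mem_union]
    tauto
  | mul p q hp hq =>
    have hpq : p.height = 0 ∧ q.height = 0 := by
      simp only [GExp.height] at he
      omega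
    have := (hp hpq.1).conc (hq hpq.2)
    convert this using 1
    ext w
    simp only [sigma, GExp.denote, Set.mem_setOf_eq, mem_conc]
    constructor
    · rintro ⟨h1, r, hr, s, hs, h2⟩
      obtain ⟨w1, w2, rfl, h3, h4, h5, h6⟩ := dec_split hc h1 h2
      exact ⟨w1, ⟨h3, h5 ▸ hr⟩, w2, ⟨h4, h6 ▸ hs⟩, rfl⟩
    · rintro ⟨w1, ⟨h1, h2⟩, w2, ⟨h3, h4⟩, rfl⟩
      refine ⟨KSet.append hc h1 h3, dec φ c 1 w1, h2, dec φ c 1 w2, h4, dec_append h1⟩
  | compl p hp =>
    have hp0 : p.height = 0 := by simpa [GExp.height] using he
    have := (gshLe_KSet hc).inter (hp hp0).compl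
    convert this using 1
    ext w
    simp only [sigma, GExp.denote, Set.mem_setOf_eq, Set.mem_inter_iff, Set.mem_compl_iff]
    tauto
  | star p _ =>
    simp [GExp.height] at he

end decode

/-- Schutzenberger's theorem, the direction needed here: a language recognised by a finite
aperiodic monoid is star-free. The statement is for the words over a set of letters `B`. -/
theorem starfree_aux (n : ℕ) : ∀ (M : Type) [Monoid M] [Finite M], Nat.card M ≤ n → Aper M →
    ∀ (α : Type) [Fintype α] [DecidableEq α] (φ : α → M) (k : ℕ) (B : Finset α), B.card ≤ k →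
    ∀ m : M, GshLe 0 {w : List α | (∀ x ∈ w, x ∈ B) ∧ wval φ w = m} := by
  induction n with
  | zero =>
    intro M _ _ hcard
    have := Nat.card_pos (α := M)
    omega
  | succ n IHn =>
    intro M _ _ hcard hM α _ _ φ k
    induction k with
    | zero =>
      intro B hB m
      have hB' : B = ∅ := Finset.card_eq_zero.mp (by omega)
      subst hB'
      by_cases hm : (1 : M) = m
      · convert gshLe_nil (h := 0) (α := α) using 1
        ext w
        simp only [Set.mem_setOf_eq, Set.mem_singleton_iff]
        constructor
        · rintro ⟨h1, _⟩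
          cases w with
          | nil => rfl
          | cons x w => simpa using h1 x (by simp)
        · rintro rfl
          exact ⟨by simp, by simpa using hm⟩
      · convert gshLe_empty (h := 0) (α := α) using 1
        ext w
        simp only [Set.mem_setOf_eq, Set.mem_empty_iff_false, iff_false]
        rintro ⟨h1, h2⟩
        cases w with
        | nil => exact hm (by simpa using h2)
        | cons x w => simpa using h1 x (by simp)
    | succ k IHk =>
      intro B hB m
      classical
      by_cases hall : ∀ x ∈ B, φ x = 1
      · -- all letters are trivial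
        have hval : ∀ w : List α, (∀ x ∈ w, x ∈ B) → wval φ w = 1 := by
          intro w hw
          induction w with
          | nil => rfl
          | cons x w ih =>
            rw [wval_cons, hall x (hw x (by simp)), ih (fun y hy => hw y (by simp [hy])), one_mul]
        by_cases hm : (1 : M) = m
        · convert gshLe_onlyLetters (h := 0) (fun x => x ∈ B) using 1
          ext w
          simp only [Set.mem_setOf_eq, onlyLetters]
          constructor
          · rintro ⟨h1, _⟩
            exact h1
          · intro h1
            exact ⟨h1, by rw [hval w h1, hm]⟩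
        · convert gshLe_empty (h := 0) (α := α) using 1
          ext w
          simp only [Set.mem_setOf_eq, Set.mem_empty_iff_false, iff_false]
          rintro ⟨h1, h2⟩
          exact hm (by rw [← h2, hval w h1])
      · push_neg at hall
        obtain ⟨c, hcB, hc1⟩ := hall
        have hcard' : (B.erase c).card ≤ k := by
          rw [Finset.card_erase_of_mem hcB]
          omega
        -- words without `c`
        have hseg : ∀ t, GshLe 0 (segLang φ B c t) := by
          intro t
          convert IHk (B.erase c) hcard' t using 1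
          ext w
          simp only [segLang, Set.mem_setOf_eq, Finset.mem_erase]
          constructor
          · rintro ⟨h1, h2, h3⟩
            refine ⟨fun x hx => ⟨fun h => h2 (h ▸ hx), h1 x hx⟩, h3⟩
          · rintro ⟨h1, h3⟩
            exact ⟨fun x hx => (h1 x hx).2, fun h => (h1 c h).1 rfl, h3⟩
        -- the local monoid
        have hlt := LocalM.card_lt (c := φ c) hM hc1
        have hloc := IHn (LocalM (φ c)) (by omega) (LocalM.aper hM)
        let ψ : M → LocalM (φ c) := fun t => ⟨φ c * t * φ c, ⟨t * φ c, by simp [mul_assoc]⟩,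
          ⟨φ c * t, rfl⟩⟩
        have hZ : ∀ p : LocalM (φ c), GshLe 0 (sigma φ B c {t | wval ψ t = p}) := by
          intro p
          classical
          haveI := Fintype.ofFinite M
          have h1 := hloc M ψ _ Finset.univ le_rfl p
          obtain ⟨e, he, hh⟩ := h1
          have h2 : e.denote = {t | wval ψ t = p} := by
            rw [he]
            ext t
            simp
          rw [← h2]
          exact gshLe_sigma hcB hseg e (by omega)
        -- the value on `KSet`
        have hval : ∀ v : List α, v ∈ KSet B c →
            (wval ψ (dec φ c 1 v)).1 = φ c * wval φ v := by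
          intro v
          induction hn : v.length using Nat.strong_induction_on generalizing v with
          | _ n ih =>
            intro hv
            by_cases hne : v = []
            · subst hne
              simp [dec, LocalM.one_val]
            · obtain ⟨u, w', rfl, h3, _, h5⟩ := KSet.decomp hv hne
              rw [dec_segment _ h3, wval_cons, one_mul, wval_append, wval_cons]
              have h6 : (ψ (wval φ u)).1 = (φ c * wval φ u) * φ c := rfl
              rw [LocalM.mul_val_of _ _ h6, ih w'.length (by simp at hn; omega) w' rfl h5]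
              simp only [mul_assoc]
        -- the decomposition of a word containing `c`
        have hsplit : ∀ w : List α, (∀ x ∈ w, x ∈ B) →
            ∃ v u, w = v ++ u ∧ v ∈ KSet B c ∧ (∀ x ∈ u, x ∈ B) ∧ c ∉ u := by
          intro w
          induction hn : w.length using Nat.strong_induction_on generalizing w with
          | _ n ih =>
            intro hw
            by_cases hcw : c ∈ w
            · obtain ⟨s, t, rfl⟩ := List.append_of_mem hcw
              have hs : c ∉ s ∨ c ∈ s := (em _).symm
              -- split at the first occurrence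
              obtain ⟨s', t', h1, h2⟩ : ∃ s' t', s ++ c :: t = s' ++ c :: t' ∧ c ∉ s' := by
                clear hs ih hn hw hcw
                induction s with
                | nil => exact ⟨[], t, rfl, by simp⟩
                | cons y s ihs =>
                  by_cases hy : y = c
                  · subst hy
                    exact ⟨[], s ++ y :: t, by simp, by simp⟩
                  · obtain ⟨s', t', h1, h2⟩ := ihs
                    refine ⟨y :: s', t', by simp [h1], ?_⟩
                    simp only [List.mem_cons, not_or]
                    exact ⟨fun h => hy h.symm, h2⟩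
              rw [h1] at hw hn ⊢
              obtain ⟨v, u, h3, h4, h5, h6⟩ := ih t'.length (by simp at hn; omega) t' rfl
                (fun x hx => hw x (by simp [hx]))
              refine ⟨s' ++ c :: v, u, by simp [h3], ?_, h5, h6⟩
              exact KSet.cons_seg (fun x hx => hw x (by simp [hx])) hcB h4
            · exact ⟨[], w, rfl, KSet.nil, hw, hcw⟩
        -- assemble
        have hpart : GshLe 0 (⋃ t : M × LocalM (φ c) × M, {w : List α | t.1 * t.2.1.1 * t.2.2 = m ∧
            w ∈ conc (segLang φ B c t.1) (conc {[c]} (conc (sigma φ B c {r | wval ψ r = t.2.1})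
              (segLang φ B c t.2.2)))}) := by
          refine GshLe.iUnion_finite fun t => ?_
          by_cases ht : t.1 * t.2.1.1 * t.2.2 = m
          · have := (hseg t.1).conc ((gshLe_letter (h := 0) c).conc ((hZ t.2.1).conc (hseg t.2.2)))
            convert this using 1
            ext w
            simp [ht]
          · convert gshLe_empty (h := 0) (α := α) using 1
            ext w
            simp [ht]
        have := (hseg m).union hpart
        convert this using 1
        ext w
        simp only [Set.mem_setOf_eq, Set.mem_union, Set.mem_iUnion, mem_conc]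
        constructor
        · rintro ⟨h1, h2⟩
          by_cases hcw : c ∈ w
          · right
            -- first occurrence of `c`
            obtain ⟨s', t', h3, h4⟩ : ∃ s' t', w = s' ++ c :: t' ∧ c ∉ s' := by
              clear h2 h1
              induction w with
              | nil => simp at hcw
              | cons y s ihs =>
                by_cases hy : y = c
                · subst hy
                  exact ⟨[], s, by simp, by simp⟩
                · have hcs : c ∈ s := by
                    rcases List.mem_cons.mp hcw with h | h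
                    · exact absurd h.symm hy
                    · exact h
                  obtain ⟨s', t', h3, h4⟩ := ihs hcs
                  refine ⟨y :: s', t', by simp [h3], ?_⟩
                  simp only [List.mem_cons, not_or]
                  exact ⟨fun h => hy h.symm, h4⟩
            subst h3
            obtain ⟨v, u, rfl, h6, h7, h8⟩ := hsplit t' (fun x hx => h1 x (by simp [hx]))
            refine ⟨(wval φ s', wval ψ (dec φ c 1 v), wval φ u), ?_, s',
              ⟨fun x hx => h1 x (by simp [hx]), h4, rfl⟩, c :: (v ++ u), ⟨[c], rfl, v ++ u,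
                ⟨v, ⟨h6, rfl⟩, u, ⟨h7, h8, rfl⟩, rfl⟩, rfl⟩, rfl⟩
            simp only
            rw [hval v h6]
            rw [wval_append, wval_cons, wval_append] at h2
            simp only [mul_assoc] at h2 ⊢
            exact h2
          · exact Or.inl ⟨h1, hcw, h2⟩
        · rintro (⟨h1, h2, h3⟩ | ⟨⟨m0, p, m2⟩, h1, s, ⟨h2, h3, h4⟩, _, ⟨_, rfl, _,
            ⟨v, ⟨h5, h6⟩, u, ⟨h7, h8, h9⟩, rfl⟩, rfl⟩, rfl⟩)
          · exact ⟨h1, h3⟩
          · simp only at h1
            refine ⟨?_, ?_⟩
            · intro x hx
              simp only [List.singleton_append, List.mem_append, List.mem_cons] at hx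
              rcases hx with hx | rfl | hx | hx
              · exact h2 x hx
              · exact hcB
              · exact h5.1 x hx
              · exact h7 x hx
            · have e : s ++ [c] ++ (v ++ u) = s ++ c :: (v ++ u) := by simp
              simp only [List.singleton_append]
              rw [wval_append, wval_cons, wval_append, h4, h9, ← h1]
              have h10 : p.1 = φ c * wval φ v := by
                have h6' : wval ψ (dec φ c 1 v) = p := h6
                rw [← h6', hval v h5]
              rw [h10]
              simp only [mul_assoc]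

/-- A language recognised by a finite aperiodic monoid is star-free. -/
theorem starfree_of_aper {M : Type} [Monoid M] [Finite M] (hM : Aper M) {α : Type} [Fintype α]
    [DecidableEq α] (φ : α → M) (m : M) : GshLe 0 {w : List α | wval φ w = m} := by
  have h := starfree_aux _ M le_rfl hM α φ _ Finset.univ le_rfl m
  convert h using 1
  ext w
  simp

end Vale.Agent.helper3.Gsh
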