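import Vale.Agent.helper3.Gsh.Aperiodic
import Vale.Agent.helper5.GSHMachine

/-!
A deterministic automaton with a base state such that no word cycles states off the base state:
all its fibers have generalized star height at most one.
-/

namespace Vale.Agent.helper3.Gsh

open Vale.Agent.helper5.GSH

variable {α Q : Type}

/-- The automaton in which the base state is made absorbing. -/
def deadStep [DecidableEq Q] (δ : Q → α → Q) (b : Q) : Q → α → Q :=
  fun q x => if q = b then b else δ q x

section wordfn

/-- The functions on the states induced by words. -/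
def WordFn (δ' : Q → α → Q) : Type := {f : Q → Q // ∃ w : List α, f = fun q => run δ' q w}

variable {δ' : Q → α → Q}

instance : Monoid (WordFn δ') where
  mul f g := ⟨g.1 ∘ f.1, by
    obtain ⟨u, hu⟩ := f.2
    obtain ⟨v, hv⟩ := g.2
    refine ⟨u ++ v, ?_⟩
    rw [hu, hv]
    funext q
    simp [run_append]⟩
  one := ⟨id, [], rfl⟩
  mul_assoc _ _ _ := Subtype.ext rfl
  one_mul _ := Subtype.ext rfl
  mul_one _ := Subtype.ext rfl

lemma WordFn.mul_val (f g : WordFn δ') : (f * g).1 = g.1 ∘ f.1 := rfl
lemma WordFn.one_val : (1 : WordFn δ').1 = id := rfl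

lemma WordFn.pow_val (f : WordFn δ') (n : ℕ) : (f ^ n).1 = f.1^[n] := by
  induction n with
  | zero => rfl
  | succ n ih =>
    rw [pow_succ, WordFn.mul_val, ih, Function.iterate_succ']

instance [Finite Q] : Finite (WordFn δ') := by
  unfold WordFn
  infer_instance

/-- The letters as elements of the monoid. -/
def WordFn.letter (δ' : Q → α → Q) (x : α) : WordFn δ' := ⟨fun q => δ' q x, [x], rfl⟩

lemma WordFn.wval_val (w : List α) (q : Q) : (wval (WordFn.letter δ') w).1 q = run δ' q w := by
  induction w generalizing q with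
  | nil => rfl
  | cons x w ih =>
    simp only [wval, List.map_cons, List.prod_cons]
    rw [WordFn.mul_val]
    exact ih (δ' q x)

lemma iterate_stable [Fintype Q] {f : Q → Q} (h : ∀ q k, 0 < k → f^[k] q = q → f q = q) (q : Q) :
    f^[Fintype.card Q] q = f^[Fintype.card Q + 1] q := by
  classical
  have hne : ¬ Function.Injective (fun i : Fin (Fintype.card Q + 1) => f^[i.1] q) := by
    intro hinj
    have := Fintype.card_le_of_injective _ hinj
    simp at this
  simp only [Function.Injective, not_forall] at hne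
  obtain ⟨i, j, hij, hne⟩ := hne
  have key : ∀ a b : Fin (Fintype.card Q + 1), a.1 < b.1 → f^[a.1] q = f^[b.1] q →
      f^[Fintype.card Q] q = f^[Fintype.card Q + 1] q := by
    intro a b hab heq
    have h1 : f^[b.1 - a.1] (f^[a.1] q) = f^[a.1] q := by
      rw [← Function.iterate_add_apply, Nat.sub_add_cancel hab.le]
      exact heq.symm
    have h2 := h _ _ (Nat.sub_pos_of_lt hab) h1
    have h3 : ∀ t, f^[t] (f^[a.1] q) = f^[a.1] q := by
      intro t
      induction t with
      | zero => rfl
      | succ t ih => rw [Function.iterate_succ_apply, h2, ih]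
    have ha : a.1 ≤ Fintype.card Q := Nat.lt_succ_iff.mp a.2
    have h4 : ∀ n, a.1 ≤ n → f^[n] q = f^[a.1] q := by
      intro n hn
      obtain ⟨t, rfl⟩ := Nat.exists_eq_add_of_le hn
      rw [Nat.add_comm, Function.iterate_add_apply, h3]
    exact (h4 _ ha).trans (h4 _ (by omega)).symm
  rcases lt_or_gt_of_ne (fun h => hne (Fin.ext h) : i.1 ≠ j.1) with h1 | h1
  · exact key i j h1 hij
  · exact key j i h1 hij.symm

end wordfn

variable [DecidableEq Q] (δ : Q → α → Q) (b : Q)

/-- Validity: a word that moves a state along a cycle of the automaton with absorbing base state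
must fix this state. -/
def Valid : Prop :=
  ∀ (v : List α) (q : Q) (k : ℕ), 0 < k →
    (fun s => run (deadStep δ b) s v)^[k] q = q → run (deadStep δ b) q v = q

variable {δ b}

lemma run_dead_base (w : List α) : run (deadStep δ b) b w = b := by
  induction w with
  | nil => rfl
  | cons x w ih => simpa [deadStep] using ih

lemma avoids_run_ne {q : Q} {w : List α} (h : Avoids δ b q w) : run δ q w ≠ b := by
  induction w generalizing q with
  | nil => exact h
  | cons x w ih => exact ih h.2

lemma path_iff {q q' : Q} (hq : q ≠ b) (hq' : q' ≠ b) (w : List α) :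
    (Avoids δ b q w ∧ run δ q w = q') ↔ run (deadStep δ b) q w = q' := by
  induction w generalizing q with
  | nil =>
    simp only [Avoids, run_nil]
    exact ⟨fun h => h.2, fun h => ⟨hq, h⟩⟩
  | cons x w ih =>
    simp only [Avoids, run_cons]
    have e : deadStep δ b q x = δ q x := by simp [deadStep, hq]
    rw [e]
    by_cases hx : δ q x = b
    · rw [hx, run_dead_base]
      constructor
      · rintro ⟨⟨_, h⟩, _⟩
        exact absurd rfl h.ne
      · intro h
        exact absurd h.symm hq'
    · rw [← ih hx]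
      exact ⟨fun h => ⟨h.1.2, h.2⟩, fun h => ⟨⟨hq, h.1⟩, h.2⟩⟩

lemma aper_wordFn [Finite Q] (hv : Valid δ b) : Aper (WordFn (α := α) (deadStep δ b)) := by
  classical
  haveI := Fintype.ofFinite Q
  intro x
  obtain ⟨w, hw⟩ := x.2
  refine ⟨Fintype.card Q, ?_⟩
  apply Subtype.ext
  rw [WordFn.pow_val, WordFn.pow_val]
  funext q
  apply iterate_stable
  intro q k hk h
  rw [hw] at h ⊢
  exact hv w q k hk h

lemma gshLe_pathSet_of_valid [Finite Q] [Fintype α] [DecidableEq α] (hv : Valid δ b) (q q' : Q)
    (hq : q ≠ b) : GshLe 0 (pathSet δ b q q') := by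
  classical
  by_cases hq' : q' = b
  · convert gshLe_empty (h := 0) (α := α) using 1
    ext w
    simp only [pathSet, Set.mem_setOf_eq, Set.mem_empty_iff_false, iff_false]
    rintro ⟨h1, h2⟩
    exact avoids_run_ne h1 (h2.trans hq')
  · have h1 := fun f : {f : WordFn (α := α) (deadStep δ b) // f.1 q = q'} =>
      starfree_of_aper (aper_wordFn hv) (WordFn.letter (deadStep δ b)) f.1
    have h2 := GshLe.iUnion_finite h1
    convert h2 using 1
    ext w
    simp only [pathSet, Set.mem_setOf_eq, Set.mem_iUnion]
    rw [path_iff hq hq' w]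
    constructor
    · intro h
      refine ⟨⟨wval (WordFn.letter (deadStep δ b)) w, ?_⟩, rfl⟩
      rw [WordFn.wval_val, h]
    · rintro ⟨⟨f, hf⟩, h⟩
      have h' : wval (WordFn.letter (deadStep δ b)) w = f := h
      rw [← hf, ← h', WordFn.wval_val]

section fiber

variable [Fintype α] [DecidableEq α]

lemma gshLe_reachSet_of_valid [Finite Q] (hv : Valid δ b) (q : Q) (hq : q ≠ b) :
    GshLe 0 (reachSet δ b q) := by
  classical
  haveI := Fintype.ofFinite Q
  have : reachSet δ b q = ⋃ q' : Q, ⋃ c : α,
      {w | δ q' c = b ∧ w ∈ conc (pathSet δ b q q') {[c]}} := by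
    ext w
    simp only [reachSet, Set.mem_setOf_eq, Set.mem_iUnion]
    constructor
    · rintro ⟨u, c, rfl, h1, h2⟩
      exact ⟨run δ q u, c, h2, u, ⟨h1, rfl⟩, [c], rfl, rfl⟩
    · rintro ⟨q', c, h1, u, ⟨h2, rfl⟩, _, rfl, rfl⟩
      exact ⟨u, c, rfl, h2, h1⟩
  rw [this]
  refine GshLe.iUnion_fintype fun q' => GshLe.iUnion_fintype fun c => ?_
  by_cases hc : δ q' c = b
  · have h6 := (gshLe_pathSet_of_valid hv q q' hq).conc (gshLe_letter (h := 0) c)
    convert h6 using 1
    ext w
    simp [hc]
  · convert gshLe_empty (h := 0) (α := α) using 1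
    ext w
    simp [hc]

lemma gshLe_returnCode_of_valid [Finite Q] (hv : Valid δ b) : GshLe 0 (returnCode δ b) := by
  classical
  refine GshLe.union ?_ ?_
  · have : {w | ∃ x, w = [x] ∧ δ b x = b} = ⋃ x : α, {w : List α | δ b x = b ∧ w = [x]} := by
      ext w
      simp only [Set.mem_setOf_eq, Set.mem_iUnion]
      constructor
      · rintro ⟨x, h1, h2⟩
        exact ⟨x, h2, h1⟩
      · rintro ⟨x, h1, h2⟩
        exact ⟨x, h2, h1⟩
    rw [this]
    refine GshLe.iUnion_fintype fun x => ?_
    by_cases hx : δ b x = b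
    · convert gshLe_letter (h := 0) x using 1
      ext w
      simp [hx]
    · convert gshLe_empty (h := 0) (α := α) using 1
      ext w
      simp [hx]
  · have : {w | ∃ x u, w = x :: u ∧ δ b x ≠ b ∧ u ∈ reachSet δ b (δ b x)} =
        ⋃ x : α, {w | δ b x ≠ b ∧ w ∈ conc {[x]} (reachSet δ b (δ b x))} := by
      ext w
      simp only [Set.mem_setOf_eq, Set.mem_iUnion]
      constructor
      · rintro ⟨x, u, rfl, h1, h2⟩
        exact ⟨x, h1, [x], rfl, u, h2, rfl⟩
      · rintro ⟨x, h1, _, rfl, u, h2, rfl⟩
        exact ⟨x, u, rfl, h1, h2⟩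
    rw [this]
    refine GshLe.iUnion_fintype fun x => ?_
    by_cases hx : δ b x = b
    · convert gshLe_empty (h := 0) (α := α) using 1
      ext w
      simp [hx]
    · have h6 := (gshLe_letter (h := 0) x).conc (gshLe_reachSet_of_valid hv (δ b x) hx)
      convert h6 using 1
      ext w
      simp [hx]

lemma gshLe_return_of_valid [Finite Q] (hv : Valid δ b) :
    GshLe 1 {w : List α | run δ b w = b} := by
  rw [return_eq_kstar]
  exact (gshLe_returnCode_of_valid hv).star

/-- The main lemma: all fibers of a valid automaton have generalized star height at most one. -/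
theorem gshLe_fiber_of_valid [Finite Q] (hv : Valid δ b) (q0 q1 : Q) :
    GshLe 1 {w : List α | run δ q0 w = q1} := by
  classical
  have hfirst : GshLe 1 {w : List α | run δ q0 w = b} := by
    by_cases hq0 : q0 = b
    · subst hq0
      exact gshLe_return_of_valid hv
    · have h2 := ((gshLe_reachSet_of_valid hv q0 hq0).mono (Nat.zero_le 1)).conc
        (gshLe_return_of_valid hv)
      convert h2 using 1
      ext w
      simp only [Set.mem_setOf_eq, mem_conc]
      constructor
      · intro hw
        obtain ⟨u, c, v, rfl, h3, h4, h5⟩ := first_hit hq0 hw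
        exact ⟨u ++ [c], ⟨u, c, rfl, h3, h4⟩, v, h5, by simp⟩
      · rintro ⟨_, ⟨u, c, rfl, _, h4⟩, v, h5, rfl⟩
        rw [run_append, run_append]
        simpa [h4] using h5
  by_cases hq1 : q1 = b
  · subst hq1
    exact hfirst
  have hlast : GshLe 0 (⋃ x : α, {w : List α | δ b x ≠ b ∧
      w ∈ conc {[x]} (pathSet δ b (δ b x) q1)}) := by
    refine GshLe.iUnion_fintype fun x => ?_
    by_cases hx : δ b x = b
    · convert gshLe_empty (h := 0) (α := α) using 1
      ext w
      simp [hx]
    · have h6 := (gshLe_letter (h := 0) x).conc (gshLe_pathSet_of_valid hv (δ b x) q1 hx)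
      convert h6 using 1
      ext w
      simp [hx]
  have hav : GshLe 1 {w : List α | Avoids δ b q0 w ∧ run δ q0 w = q1} := by
    by_cases hq0 : q0 = b
    · convert gshLe_empty (h := 1) (α := α) using 1
      ext w
      simp only [Set.mem_setOf_eq, Set.mem_empty_iff_false, iff_false]
      rintro ⟨h1, _⟩
      exact h1.ne hq0
    · exact (gshLe_pathSet_of_valid hv q0 q1 hq0).mono (Nat.zero_le 1)
  have h7 := hav.union (hfirst.conc (hlast.mono (Nat.zero_le 1)))
  convert h7 using 1
  ext w
  simp only [Set.mem_setOf_eq, Set.mem_union, mem_conc, Set.mem_iUnion]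
  constructor
  · intro hw
    rcases last_visit hq1 hw with h2 | ⟨u, x, v, rfl, h2, h3, h4, h5⟩
    · exact Or.inl ⟨h2, hw⟩
    · right
      exact ⟨u, h2, x :: v, ⟨x, h3, [x], rfl, v, ⟨h4, h5⟩, rfl⟩, rfl⟩
  · rintro (⟨_, h2⟩ | ⟨u, h2, v, ⟨x, _, _, rfl, t, ⟨_, h5⟩, rfl⟩, rfl⟩)
    · exact h2
    · rw [run_append, h2]
      simpa using h5

/-- All the functions read off from a valid automaton are accessible. -/
theorem acc_run_of_valid [Finite Q] (hv : Valid δ b) (q0 : Q) :
    Acc (fun w : List α => run δ q0 w) :=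
  fun q1 => gshLe_fiber_of_valid hv q0 q1

end fiber

end Vale.Agent.helper3.Gsh
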